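import Vale.Agent.P088.R2.H605.V.Kform

/-!
# P088, two arbitrary pairs: bounds of the first order coefficients
-/

open MeasureTheory Set
open scoped ContDiff Matrix

noncomputable section

namespace Vale.Agent.P088.PJ.H605

open Vale.Agent.P088.LR Vale.Agent.P088.LR.U Vale.Agent.P088.LR.H158
open Vale.Agent.P088.HY (VV Bs Bn Un DB)

variable {n N k : ℕ}

section gen

variable {F : Type*} [NormedAddCommGroup F] [NormedSpace ℝ F]

theorem cl_cst {c : F} {b : ℝ} (h : ‖c‖ ≤ b) : Cl k b (fun _ : V n => c) := by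
  intro l _ x
  rcases Nat.eq_zero_or_pos l with rfl | hl
  · rw [norm_iteratedFDeriv_zero]
    exact h
  · rw [iteratedFDeriv_const_of_ne hl.ne']
    simpa using (norm_nonneg c).trans h

theorem cl_le' {k k' : ℕ} {a b : ℝ} {f : V n → F} (h : Cl k a f) (hk : k' ≤ k) (hab : a ≤ b) :
    Cl k' b f := fun l hl x => (h l (hl.trans hk) x).trans hab

theorem cl_nn' {a : ℝ} {f : V n → F} (h : Cl k a f) : 0 ≤ a :=
  (norm_nonneg _).trans (h 0 (Nat.zero_le _) 0)

theorem cl_neg' {a : ℝ} {f : V n → F} (h : Cl k a f) : Cl k a (fun x => -f x) := by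
  intro l hl x
  have e : iteratedFDeriv ℝ l (fun x => -f x) x = -iteratedFDeriv ℝ l f x :=
    iteratedFDeriv_neg_apply (f := f)
  rw [e, norm_neg]
  exact h l hl x

theorem cl_pdF {δ : ℝ} {f : V n → F}
    (hf : ContDiff ℝ ∞ f) (h : Cl (k + 1) δ f) (i : Fin n) : Cl k δ (pd i f) := by
  intro l hl x
  let L : (V n →L[ℝ] F) →L[ℝ] F := ContinuousLinearMap.apply ℝ F (Pi.single i (1 : ℝ))
  have hL : ‖L‖ ≤ 1 := by
    refine ContinuousLinearMap.opNorm_le_bound _ zero_le_one fun T => ?_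
    have h1 : L T = T (Pi.single i 1) := rfl
    rw [h1, one_mul]
    refine (T.le_opNorm _).trans ?_
    rw [Pi.norm_single, norm_one, mul_one]
  have h2 : pd i f = L ∘ fderiv ℝ f := rfl
  rw [h2]
  have hfd : ContDiff ℝ ∞ (fderiv ℝ f) := hf.fderiv_right (by simp)
  refine (ContinuousLinearMap.norm_iteratedFDeriv_comp_left L hfd.contDiffAt
    (by exact_mod_cast le_top)).trans ?_
  rw [norm_iteratedFDeriv_fderiv]
  calc ‖L‖ * ‖iteratedFDeriv ℝ (l + 1) f x‖ ≤ 1 * ‖iteratedFDeriv ℝ (l + 1) f x‖ :=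
        mul_le_mul_of_nonneg_right hL (norm_nonneg _)
    _ ≤ δ := by rw [one_mul]; exact h (l + 1) (by omega) x

theorem cl_sumc {ι : Type*} [Fintype ι] {f : ι → V n → F} (hf : ∀ i, ContDiff ℝ ∞ (f i)) {a : ℝ}
    (h : ∀ i, Cl k a (f i)) : Cl k (Fintype.card ι * a) (fun x => ∑ i, f i x) := by
  have h1 := H91.cl_fsum (k := k) Finset.univ (fun i _ => hf i) (a := fun _ => a) (fun i _ => h i)
  simpa using h1

end gen

theorem clC_mono {k k' : ℕ} {a b : ℝ} {P : MC n N} (h : ClC k a P) (hk : k' ≤ k) (hab : a ≤ b) :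
    ClC k' b P := fun α β => cl_le' (h α β) hk hab

theorem clC_add {a b : ℝ} {P Q : MC n N} (sP : SmC P) (sQ : SmC Q) (h1 : ClC k a P)
    (h2 : ClC k b Q) : ClC k (a + b) (fun x => P x + Q x) :=
  fun α β => H91.cl_add2 (sP α β) (sQ α β) (h1 α β) (h2 α β)

theorem clC_neg {a : ℝ} {P : MC n N} (h1 : ClC k a P) : ClC k a (fun x => -P x) :=
  fun α β => cl_neg' (h1 α β)

theorem clC_sub {a b : ℝ} {P Q : MC n N} (sP : SmC P) (sQ : SmC Q) (h1 : ClC k a P)
    (h2 : ClC k b Q) : ClC k (a + b) (fun x => P x - Q x) := by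
  have h3 := clC_add sP (fun α β => (sQ α β).neg) h1 (clC_neg h2)
  intro α β
  refine cl_le' (f := fun x => (P x - Q x) α β) ?_ le_rfl le_rfl
  have e : (fun x => (P x - Q x) α β) = fun x => (P x + -Q x) α β := by
    funext x
    rw [sub_eq_add_neg]
  rw [e]
  exact h3 α β

theorem clC_mul {a b : ℝ} {P Q : MC n N} (hP : SmC P) (hQ : SmC Q) (h1 : ClC k a P)
    (h2 : ClC k b Q) : ClC k (N * (2 ^ k * (a * b))) (fun x => P x * Q x) := by
  intro α β
  have h3 := cl_sumc (k := k) (fun c : Fin N => (hP α c).mul (hQ c β))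
    (fun c => H91.cl_mul2 (hP α c) (hQ c β) (h1 α c) (h2 c β))
  rw [Fintype.card_fin] at h3
  simp only [Matrix.mul_apply]
  exact h3

theorem clC_sumc {ι : Type*} [Fintype ι] {F : ι → MC n N} (sF : ∀ i, SmC (F i)) {a : ℝ}
    (h : ∀ i, ClC k a (F i)) : ClC k (Fintype.card ι * a) (fun x => ∑ i, F i x) := by
  intro α β
  have h3 := cl_sumc (k := k) (fun i => sF i α β) (fun i => h i α β)
  simp only [Matrix.sum_apply]
  exact h3

theorem cl_ofR {a : ℝ} {f : V n → ℝ} (hf : ContDiff ℝ ∞ f) (h : Cl k a f) :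
    Cl k a (fun x => (f x : ℂ)) := by
  have h1 := H91.cl_clm Complex.ofRealCLM hf h
  rw [Complex.ofRealCLM_norm, one_mul] at h1
  exact h1

theorem clC_smulr {a b : ℝ} {f : V n → ℝ} (hf : ContDiff ℝ ∞ f) {P : MC n N} (hP : SmC P)
    (h1 : Cl k a f) (h2 : ClC k b P) : ClC k (2 ^ k * (a * b)) (fun x => (f x : ℂ) • P x) := by
  intro α β
  exact H91.cl_mul2 (Complex.ofRealCLM.contDiff.comp hf) (hP α β) (cl_ofR hf h1) (h2 α β)

theorem clC_one {b : ℝ} (hb : 1 ≤ b) : ClC k b (fun _ : V n => (1 : Matrix (Fin N) (Fin N) ℂ)) := by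
  intro α β
  refine cl_cst ?_
  by_cases h : α = β
  · subst h
    rw [Matrix.one_apply_eq, norm_one]
    exact hb
  · rw [Matrix.one_apply_ne h, norm_zero]
    linarith

theorem clC_pdm {δ : ℝ} {P : MC n N} (hP : SmC P) (h : ClC (k + 1) δ P) (i : Fin n) :
    ClC k δ (pdm i P) := fun a b => cl_pdF (hP a b) (h a b) i

/-- a matrix function near `1` is bounded -/
theorem clC_near {δ : ℝ} {P : MC n N} (hP : SmC P)
    (h : ClC k δ (fun x => P x - 1)) : ClC k (1 + δ) P := by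
  have h1 := clC_add (fun a b => (hP a b).sub contDiff_const) H91.sm_one h
    (clC_one (k := k) (n := n) (N := N) le_rfl)
  intro a b
  have e : (fun x => P x a b) = fun x => (P x - 1 + 1) a b := by
    funext x
    rw [sub_add_cancel]
  rw [e]
  exact cl_le' (h1 a b) le_rfl (by linarith)

theorem cl_entry {δ : ℝ} {s : MF n} (hs : SmM s)
    (h : ∀ i j, Cl k δ (fun x => s x i j - (1 : Matrix (Fin n) (Fin n) ℝ) i j)) (i j : Fin n) :
    Cl k (1 + δ) (fun x => s x i j) := by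
  have h1 := H91.cl_add2 ((hs i j).sub contDiff_const) contDiff_const (h i j)
    (cl_cst (k := k) (c := (1 : Matrix (Fin n) (Fin n) ℝ) i j) (b := 1) (by
      by_cases h : i = j
      · subst h
        rw [Matrix.one_apply_eq, norm_one]
      · rw [Matrix.one_apply_ne h, norm_zero]
        exact zero_le_one))
  have e : (fun x => s x i j) = fun x => s x i j - (1 : Matrix (Fin n) (Fin n) ℝ) i j +
      (1 : Matrix (Fin n) (Fin n) ℝ) i j := by
    funext x
    ring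
  rw [e]
  exact cl_le' h1 le_rfl (by linarith)

/-- `T_ij - δ_ij` is small. -/
theorem clC_TP {δ : ℝ} (h1 : δ ≤ 1) {s : MF n} (hs : SmM s)
    (h : ∀ i j, Cl k δ (fun x => s x i j - (1 : Matrix (Fin n) (Fin n) ℝ) i j)) {P : MC n N}
    (hP : SmC P) (hPc : ClC k δ (fun x => P x - 1)) (i j : Fin n) :
    ClC k ((2 ^ k * 2 + 1) * δ) (fun x => TP s P i j x - if i = j then 1 else 0) := by
  have hδ : 0 ≤ δ := cl_nn' (h i j)
  have e1 := clC_smulr ((hs i j).sub contDiff_const) hP (h i j) (clC_near hP hPc)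
  have sP1 : SmC (fun x => P x - 1) := fun a b => (hP a b).sub contDiff_const
  have e2 : ClC k δ (fun x => (if i = j then (1 : ℂ) else 0) • (P x - 1)) := by
    by_cases hij : i = j
    · simp only [hij, if_true, one_smul]
      exact hPc
    · simp only [hij, if_false, zero_smul]
      intro a b
      exact cl_cst (by simpa using hδ)
  have s2 : SmC (fun x => (if i = j then (1 : ℂ) else 0) • (P x - 1)) :=
    fun a b => contDiff_const.mul (sP1 a b)
  have e3 := clC_add (fun a b => (Complex.ofRealCLM.contDiff.comp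
    ((hs i j).sub contDiff_const)).mul (hP a b)) s2 e1 e2
  have e4 : (fun x => TP s P i j x - if i = j then 1 else 0) = fun x =>
      ((s x i j - (1 : Matrix (Fin n) (Fin n) ℝ) i j : ℝ) : ℂ) • P x +
        (if i = j then (1 : ℂ) else 0) • (P x - 1) := by
    funext x
    unfold TP
    by_cases hij : i = j
    · subst hij
      simp only [Matrix.one_apply_eq, if_true]
      push_cast
      module
    · simp only [Matrix.one_apply_ne hij, hij, if_false]
      simp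
  rw [e4]
  refine clC_mono e3 le_rfl ?_
  have : 0 ≤ (2 : ℝ) ^ k * δ := by positivity
  nlinarith

theorem smC_kp {s : MF n} (hs : SmM s) {G : Fin n → MC n N} (hG : ∀ i, SmC (G i)) (i : Fin n) :
    SmC (kp s G i) := smC_sum fun j => smC_smulr (hs i j) (hG j)

theorem clC_kp {δ : ℝ} (h1 : δ ≤ 1) {s : MF n} (hs : SmM s)
    (h : ∀ i j, Cl k δ (fun x => s x i j - (1 : Matrix (Fin n) (Fin n) ℝ) i j))
    {G : Fin n → MC n N} (hG : ∀ i, SmC (G i)) (hc : ∀ i, ClC k δ (G i)) (i : Fin n) :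
    ClC k (n * (2 ^ k * 2) * δ) (kp s G i) := by
  have hδ : 0 ≤ δ := cl_nn' (h i i)
  have e1 := clC_sumc (k := k) (fun j => smC_smulr (hs i j) (hG j))
    (fun j => clC_smulr (hs i j) (hG j) (cl_entry hs h i j) (hc j))
  rw [Fintype.card_fin] at e1
  refine clC_mono e1 le_rfl ?_
  have : (0 : ℝ) ≤ n * 2 ^ k * δ := by positivity
  nlinarith

theorem pdm_sub_const (P : MC n N) (C : Matrix (Fin N) (Fin N) ℂ) (i : Fin n) :
    pdm i (fun x => P x - C) = pdm i P := by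
  funext x
  ext a b
  simp only [pdm, pd, Matrix.of_apply, Matrix.sub_apply]
  rw [fderiv_sub_const]

/-- Bounds of the first order coefficients. -/
theorem bd_coef (n N k : ℕ) : ∃ C δ₁ : ℝ, 0 < C ∧ 0 < δ₁ ∧ δ₁ ≤ 1 ∧ ∀ δ : ℝ, 0 ≤ δ → δ ≤ δ₁ →
    ∀ (Ω : Set (V n)) (s : MF n) (P : MC n N) (G : Fin n → MC n N), Dt (k + 1) δ Ω s P G →
    (∀ x, IsUnit (P x).det) ∧ SmC (fun x => (P x)⁻¹) ∧ ClC k (C * δ) (fun x => (P x)⁻¹ - 1) ∧
      (∀ j, SmC (bL s P G j)) ∧ (∀ j, SmC (bR s P G j)) ∧ (∀ j, ClC k (C * δ) (bL s P G j)) ∧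
      ∀ j, ClC k (C * δ) (bR s P G j) := by
  obtain ⟨C₁, ε₁, hC₁, hε₁, hinv⟩ := H91.inv n N k
  obtain ⟨B, hB⟩ : ∃ B : ℝ, B = n * (2 ^ (k + 1) * 2 + 1) + n * (2 ^ k * 2) := ⟨_, rfl⟩
  have hB0 : 0 ≤ B := by rw [hB]; positivity
  obtain ⟨C, hC⟩ : ∃ C : ℝ, C = C₁ + N * (2 ^ k * (B * (1 + C₁))) := ⟨_, rfl⟩
  have hC0 : 0 < C := by rw [hC]; positivity
  refine ⟨C, min ε₁ 1, hC0, lt_min hε₁ one_pos, min_le_right _ _, ?_⟩
  intro δ hδ0 hδ Ω s P G d
  have hδ1 : δ ≤ 1 := hδ.trans (min_le_right _ _)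
  have cs : ∀ i j, Cl k δ (fun x => s x i j - (1 : Matrix (Fin n) (Fin n) ℝ) i j) :=
    fun i j => cl_le' (d.cs i j) (Nat.le_succ k) le_rfl
  have cP : ClC k δ (fun x => P x - 1) := clC_mono d.cP (Nat.le_succ k) le_rfl
  obtain ⟨hu, hi, hic⟩ := hinv P d.sP δ hδ0 (hδ.trans (min_le_left _ _)) cP
  have hic' : ClC k (1 + C₁) (fun x => (P x)⁻¹) := by
    refine clC_mono (clC_near hi hic) le_rfl ?_
    have : C₁ * δ ≤ C₁ := mul_le_of_le_one_right hC₁.le hδ1
    linarith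
  have hCle : C₁ * δ ≤ C * δ := by
    refine mul_le_mul_of_nonneg_right ?_ hδ0
    rw [hC]
    have : 0 ≤ N * (2 ^ k * (B * (1 + C₁))) := by positivity
    linarith
  -- the divergence of `T`
  have hT1 : ∀ i j, ClC k ((2 ^ (k + 1) * 2 + 1) * δ) (pdm i (TP s P i j)) := by
    intro i j
    have s1 : SmC (fun x => TP s P i j x - if i = j then 1 else 0) :=
      fun a b => (smC_TP d.ss d.sP i j a b).sub contDiff_const
    have e1 := clC_pdm (k := k) s1 (clC_TP hδ1 d.ss d.cs d.sP d.cP i j) i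
    rw [pdm_sub_const] at e1
    exact e1
  have hTs : ∀ j, SmC (fun x => ∑ i, pdm i (TP s P i j) x) := fun j =>
    smC_sum fun i => smC_pdm (smC_TP d.ss d.sP i j) i
  have hT : ∀ j, ClC k (n * ((2 ^ (k + 1) * 2 + 1) * δ)) (fun x => ∑ i, pdm i (TP s P i j) x) := by
    intro j
    have e1 := clC_sumc (k := k) (fun i => smC_pdm (smC_TP d.ss d.sP i j) i) (fun i => hT1 i j)
    rwa [Fintype.card_fin] at e1
  have hks := smC_kp d.ss d.sG
  have hk : ∀ j, ClC k (n * (2 ^ k * 2) * δ) (kp s G j) := fun j =>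
    clC_kp hδ1 d.ss cs d.sG (fun i => clC_mono (d.cG i) (Nat.le_succ k) le_rfl) j
  have hBδ : n * ((2 ^ (k + 1) * 2 + 1) * δ) + n * (2 ^ k * 2) * δ = B * δ := by
    rw [hB]
    ring
  have hCB : N * (2 ^ k * ((1 + C₁) * (B * δ))) ≤ C * δ := by
    have : C * δ = C₁ * δ + N * (2 ^ k * ((1 + C₁) * (B * δ))) := by
      rw [hC]
      ring
    rw [this]
    have : 0 ≤ C₁ * δ := by positivity
    linarith
  refine ⟨hu, hi, clC_mono hic le_rfl hCle, ?_, ?_, ?_, ?_⟩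
  · exact fun j => SmC_mul hi (smC_add (hTs j) (hks j))
  · exact fun j => SmC_mul (smC_sub (hTs j) (hks j)) hi
  · intro j
    have e1 := clC_mul hi (smC_add (hTs j) (hks j)) hic' (clC_add (hTs j) (hks j) (hT j) (hk j))
    rw [hBδ] at e1
    exact clC_mono e1 le_rfl hCB
  · intro j
    have e1 := clC_mul (smC_sub (hTs j) (hks j)) hi (clC_sub (hTs j) (hks j) (hT j) (hk j)) hic'
    rw [hBδ] at e1
    refine clC_mono e1 le_rfl ?_
    rw [mul_comm (B * δ)]
    exact hCB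

/-- The coefficients of the operators are admissible. -/
theorem coK_ex (n N k : ℕ) {δ₀ : ℝ} (h0 : 0 < δ₀) : ∃ δ₁ : ℝ, 0 < δ₁ ∧ δ₁ ≤ 1 ∧ δ₁ ≤ δ₀ ∧
    ∀ δ : ℝ, 0 ≤ δ → δ ≤ δ₁ → ∀ (Ω : Set (V n)) (s : MF n) (P : MC n N) (G : Fin n → MC n N),
      Dt (k + 1) δ Ω s P G → (∀ x, IsUnit (P x).det) ∧ SmC (fun x => (P x)⁻¹) ∧
        CoK k δ₀ s (bL s P G) ∧ CoK k δ₀ s (bR s P G) := by
  obtain ⟨C, ε, hC, hε, hε1, h⟩ := bd_coef n N k
  refine ⟨min ε (min δ₀ (δ₀ / C)), lt_min hε (lt_min h0 (div_pos h0 hC)),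
    (min_le_left _ _).trans hε1, (min_le_right _ _).trans (min_le_left _ _), ?_⟩
  intro δ hδ0 hδ Ω s P G d
  obtain ⟨a1, a2, -, a4, a5, a6, a7⟩ := h δ hδ0 (hδ.trans (min_le_left _ _)) Ω s P G d
  have h1 : δ ≤ δ₀ := hδ.trans ((min_le_right _ _).trans (min_le_left _ _))
  have h2 : C * δ ≤ δ₀ := by
    have : δ ≤ δ₀ / C := hδ.trans ((min_le_right _ _).trans (min_le_right _ _))
    rw [le_div_iff₀ hC] at this
    linarith
  refine ⟨a1, a2, ⟨d.ss, d.sy, d.one, fun i j => cl_le' (d.cs i j) (Nat.le_succ k) h1, a4,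
    fun j => clC_mono (a6 j) le_rfl h2⟩, ⟨d.ss, d.sy, d.one,
    fun i j => cl_le' (d.cs i j) (Nat.le_succ k) h1, a5, fun j => clC_mono (a7 j) le_rfl h2⟩⟩

end Vale.Agent.P088.PJ.H605
end
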