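import Vale.Agent.P088.R2.H551.V.Spec
import Vale.Agent.P088.H91.UInv

/-!
# P088, two arbitrary pairs: calculus of matrix functions, the operators in non divergence form
-/

open MeasureTheory Set
open scoped ContDiff Matrix

noncomputable section

namespace Vale.Agent.P088.PJ.H605

open Vale.Agent.P088.LR Vale.Agent.P088.LR.U Vale.Agent.P088.LR.H158
open Vale.Agent.P088.HY (VV Bs Bn Un DB)

variable {n N : ℕ}

/-! ### directional derivatives of matrix functions -/

section gen

variable {E : Type*} [NormedAddCommGroup E] [NormedSpace ℝ E]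

/-- The entrywise derivative in the direction `v`. -/
def dm (v : E) (K : E → Matrix (Fin N) (Fin N) ℂ) : E → Matrix (Fin N) (Fin N) ℂ := fun z =>
  Matrix.of fun a b => fderiv ℝ (fun z => K z a b) z v

/-- `K` is smooth with the derivative `K'` in the direction `v`. -/
structure HD (v : E) (K K' : E → Matrix (Fin N) (Fin N) ℂ) : Prop where
  sm : ∀ a b, ContDiff ℝ ∞ fun z => K z a b
  eq : dm v K = K'

/-- `c` is smooth with the derivative `c'` in the direction `v`. -/
structure HS (v : E) (c c' : E → ℂ) : Prop where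
  sm : ContDiff ℝ ∞ c
  eq : ∀ z, fderiv ℝ c z v = c' z

variable {v : E} {K K' L L' : E → Matrix (Fin N) (Fin N) ℂ} {c c' d d' : E → ℂ}

theorem HD.of (hK : ∀ a b, ContDiff ℝ ∞ fun z => K z a b) : HD v K (dm v K) := ⟨hK, rfl⟩

theorem HD.congr (h : HD v K K') (e : ∀ z, K' z = L' z) : HD v K L' :=
  ⟨h.sm, h.eq.trans (funext e)⟩

theorem HS.congr (h : HS v c c') (e : ∀ z, c' z = d' z) : HS v c d' :=
  ⟨h.sm, fun z => (h.eq z).trans (e z)⟩

theorem df {F : Type*} [NormedAddCommGroup F] [NormedSpace ℝ F] {f : E → F}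
    (hf : ContDiff ℝ ∞ f) (z : E) : DifferentiableAt ℝ f z := hf.differentiable (by simp) z

theorem HD.entry (h : HD v K K') (a b : Fin N) (z : E) :
    fderiv ℝ (fun z => K z a b) z v = K' z a b := by
  rw [← h.eq]
  rfl

theorem HD.mk' (hs : ∀ a b, ContDiff ℝ ∞ fun z => K z a b)
    (h : ∀ a b z, fderiv ℝ (fun z => K z a b) z v = K' z a b) : HD v K K' :=
  ⟨hs, by
    funext z
    ext a b
    exact h a b z⟩

theorem HD.add (h : HD v K K') (g : HD v L L') :
    HD v (fun z => K z + L z) (fun z => K' z + L' z) := by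
  refine HD.mk' (fun a b => (h.sm a b).add (g.sm a b)) fun a b z => ?_
  simp only [Matrix.add_apply]
  rw [fderiv_fun_add (df (h.sm a b) z) (df (g.sm a b) z), ← h.entry, ← g.entry]
  rfl

theorem HD.sub (h : HD v K K') (g : HD v L L') :
    HD v (fun z => K z - L z) (fun z => K' z - L' z) := by
  refine HD.mk' (fun a b => (h.sm a b).sub (g.sm a b)) fun a b z => ?_
  simp only [Matrix.sub_apply]
  rw [fderiv_fun_sub (df (h.sm a b) z) (df (g.sm a b) z), ← h.entry, ← g.entry]
  rfl

theorem HD.sum {ι : Type*} [Fintype ι] {K K' : ι → E → Matrix (Fin N) (Fin N) ℂ}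
    (h : ∀ i, HD v (K i) (K' i)) : HD v (fun z => ∑ i, K i z) (fun z => ∑ i, K' i z) := by
  refine HD.mk' (fun a b => ?_) fun a b z => ?_
  · simp only [Matrix.sum_apply]
    exact ContDiff.sum fun i _ => (h i).sm a b
  · simp only [Matrix.sum_apply]
    rw [fderiv_fun_sum fun i _ => df ((h i).sm a b) z]
    rw [_root_.sum_apply]
    exact Finset.sum_congr rfl fun i _ => (h i).entry a b z

theorem fd_mul {f g : E → ℂ} {x : E} (hf : DifferentiableAt ℝ f x) (hg : DifferentiableAt ℝ g x)
    (v : E) : fderiv ℝ (fun y => f y * g y) x v = fderiv ℝ f x v * g x + f x * fderiv ℝ g x v := by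
  rw [fderiv_fun_mul hf hg]
  simp only [add_apply, smul_apply, smul_eq_mul]
  ring

theorem HD.mul (h : HD v K K') (g : HD v L L') :
    HD v (fun z => K z * L z) (fun z => K' z * L z + K z * L' z) := by
  refine HD.mk' (fun a b => ?_) fun a b z => ?_
  · simp only [Matrix.mul_apply]
    exact ContDiff.sum fun i _ => (h.sm a i).mul (g.sm i b)
  · simp only [Matrix.mul_apply, Matrix.add_apply]
    have hd : ∀ i ∈ Finset.univ, DifferentiableAt ℝ (fun z => K z a i * L z i b) z :=
      fun i _ => (df (h.sm a i) z).mul (df (g.sm i b) z)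
    rw [fderiv_fun_sum hd, _root_.sum_apply, ← Finset.sum_add_distrib]
    refine Finset.sum_congr rfl fun i _ => ?_
    rw [fd_mul (df (h.sm a i) z) (df (g.sm i b) z), h.entry, g.entry]

theorem HD.smul (hc : HS v c c') (h : HD v K K') :
    HD v (fun z => c z • K z) (fun z => c' z • K z + c z • K' z) := by
  refine HD.mk' (fun a b => ?_) fun a b z => ?_
  · simp only [Matrix.smul_apply, smul_eq_mul]
    exact hc.sm.mul (h.sm a b)
  · simp only [Matrix.smul_apply, Matrix.add_apply, smul_eq_mul]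
    rw [fd_mul (df hc.sm z) (df (h.sm a b) z), h.entry, hc.eq]

theorem HS.mul (h : HS v c c') (g : HS v d d') :
    HS v (fun z => c z * d z) (fun z => c' z * d z + c z * d' z) :=
  ⟨h.sm.mul g.sm, fun z => by rw [fd_mul (df h.sm z) (df g.sm z), h.eq, g.eq]⟩

theorem HS.const (r : ℂ) : HS v (fun _ : E => r) (fun _ => 0) :=
  ⟨contDiff_const, fun z => by simp⟩

theorem HD.smulc (r : ℂ) (h : HD v K K') : HD v (fun z => r • K z) (fun z => r • K' z) :=
  (HD.smul (HS.const r) h).congr fun z => by simp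

end gen

/-! ### functions of `(x, y)` -/

/-- The smooth matrix functions. -/
theorem hd_pdm {U : MC n N} (hU : SmC U) (i : Fin n) : HD (Pi.single i 1) U (pdm i U) :=
  ⟨hU, rfl⟩

theorem smC_pdm {U : MC n N} (hU : SmC U) (i : Fin n) : SmC (pdm i U) :=
  fun a b => contDiff_pd (hU a b) i

theorem fd_fst {F : Type*} [NormedAddCommGroup F] [NormedSpace ℝ F] {f : V n → F}
    (hf : ContDiff ℝ ∞ f) (z v : VV n) :
    fderiv ℝ (fun z : VV n => f z.1) z v = fderiv ℝ f z.1 v.1 := by
  have h : HasFDerivAt (fun z : VV n => f z.1) ((fderiv ℝ f z.1).comp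
      (ContinuousLinearMap.fst ℝ (V n) (V n))) z :=
    (df hf z.1).hasFDerivAt.comp z hasFDerivAt_fst
  rw [h.fderiv]
  rfl

theorem fd_snd {F : Type*} [NormedAddCommGroup F] [NormedSpace ℝ F] {f : V n → F}
    (hf : ContDiff ℝ ∞ f) (z v : VV n) :
    fderiv ℝ (fun z : VV n => f z.2) z v = fderiv ℝ f z.2 v.2 := by
  have h : HasFDerivAt (fun z : VV n => f z.2) ((fderiv ℝ f z.2).comp
      (ContinuousLinearMap.snd ℝ (V n) (V n))) z :=
    (df hf z.2).hasFDerivAt.comp z hasFDerivAt_snd
  rw [h.fderiv]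
  rfl

theorem hd_x1 {U : MC n N} (hU : SmC U) (i : Fin n) :
    HD ((Pi.single i 1, 0) : VV n) (fun z => U z.1) (fun z => pdm i U z.1) :=
  HD.mk' (fun a b => (hU a b).comp contDiff_fst) fun a b z => fd_fst (hU a b) z _

theorem hd_x2 {U : MC n N} (hU : SmC U) (i : Fin n) :
    HD ((Pi.single i 1, 0) : VV n) (fun z => U z.2) (fun _ => 0) :=
  HD.mk' (fun a b => (hU a b).comp contDiff_snd) fun a b z => by
    rw [fd_snd (hU a b) z]
    simp

theorem hd_y1 {U : MC n N} (hU : SmC U) (i : Fin n) :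
    HD ((0, Pi.single i 1) : VV n) (fun z => U z.1) (fun _ => 0) :=
  HD.mk' (fun a b => (hU a b).comp contDiff_fst) fun a b z => by
    rw [fd_fst (hU a b) z]
    simp

theorem hd_y2 {U : MC n N} (hU : SmC U) (i : Fin n) :
    HD ((0, Pi.single i 1) : VV n) (fun z => U z.2) (fun z => pdm i U z.2) :=
  HD.mk' (fun a b => (hU a b).comp contDiff_snd) fun a b z => fd_snd (hU a b) z _

/-- `q_b = x_b - y_b`. -/
def qq (b : Fin n) (z : VV n) : ℂ := ((z.1 b - z.2 b : ℝ) : ℂ)

/-- `q_b` as a linear map. -/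
def qL (b : Fin n) : VV n →L[ℝ] ℂ := Complex.ofRealCLM.comp
  ((ContinuousLinearMap.proj b).comp (ContinuousLinearMap.fst ℝ (V n) (V n)) -
    (ContinuousLinearMap.proj b).comp (ContinuousLinearMap.snd ℝ (V n) (V n)))

theorem qL_apply (b : Fin n) (z : VV n) : qL b z = qq b z := rfl

theorem hs_qx (b i : Fin n) : HS ((Pi.single i 1, 0) : VV n) (qq b)
    (fun _ => if b = i then 1 else 0) := by
  refine ⟨(qL b).contDiff, fun z => ?_⟩
  have e : qq b = fun z => qL b z := rfl
  rw [e, (qL b).hasFDerivAt.fderiv, qL_apply]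
  simp only [qq, Pi.single_apply, Pi.zero_apply, sub_zero]
  split <;> simp

theorem hs_qy (b i : Fin n) : HS ((0, Pi.single i 1) : VV n) (qq b)
    (fun _ => if b = i then -1 else 0) := by
  refine ⟨(qL b).contDiff, fun z => ?_⟩
  have e : qq b = fun z => qL b z := rfl
  rw [e, (qL b).hasFDerivAt.fderiv, qL_apply]
  simp only [qq, Pi.single_apply, Pi.zero_apply, zero_sub]
  split <;> simp

end Vale.Agent.P088.PJ.H605
end
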