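import Vale.Agent.P088.R2.H605.V.Cal

/-!
# P088, two arbitrary pairs: the approximate solution `K` (row KLA), its derivatives
-/

open MeasureTheory Set
open scoped ContDiff Matrix

noncomputable section

namespace Vale.Agent.P088.PJ.H605

open Vale.Agent.P088.LR Vale.Agent.P088.LR.U Vale.Agent.P088.LR.H158
open Vale.Agent.P088.HY (VV Bs Bn Un DB)

variable {n N : ℕ}

/-- The approximate solution. -/
def Kf (k2 : Fin n → Fin n → MC n N) (Y W : Fin n → MC n N) (W0 : MC n N) : KC n N := fun z =>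
  ((1 / 2 : ℂ) • ∑ a, ∑ b, (qq a z * qq b z) • k2 a b z.2 + ∑ a, Y a z.1 * W a z.2) + W0 z.2

section fn

variable {k2 : Fin n → Fin n → MC n N} {Y W : Fin n → MC n N} {W0 : MC n N}
  (sk : ∀ i j, SmC (k2 i j)) (sy : ∀ i j, k2 i j = k2 j i) (sY : ∀ a, SmC (Y a))
  (sW : ∀ a, SmC (W a)) (s0 : SmC W0)

include sk sY sW s0

theorem hx (sy : ∀ i j, k2 i j = k2 j i) (i : Fin n) : HD ((Pi.single i 1, 0) : VV n)
    (Kf k2 Y W W0) (fun z => ∑ b, qq b z • k2 i b z.2 + ∑ a, pdm i (Y a) z.1 * W a z.2) := by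
  have h := ((HD.smulc (1 / 2) (HD.sum fun a => HD.sum fun b =>
    HD.smul ((hs_qx a i).mul (hs_qx b i)) (hd_x2 (sk a b) i))).add
    (HD.sum fun a => (hd_x1 (sY a) i).mul (hd_x2 (sW a) i))).add (hd_x2 s0 i)
  refine h.congr fun z => ?_
  simp only [smul_zero, add_zero, mul_zero, add_smul, Finset.sum_add_distrib, ite_mul, one_mul,
    zero_mul, mul_ite, mul_one, ite_smul, zero_smul, Finset.sum_ite_eq', Finset.mem_univ, if_true,
    Finset.sum_ite_irrel, Finset.sum_const_zero]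
  congr 1
  have e : ∑ x, qq x z • k2 x i z.2 = ∑ x, qq x z • k2 i x z.2 :=
    Finset.sum_congr rfl fun b _ => by rw [sy b i]
  rw [e, ← two_smul ℂ, smul_smul]
  norm_num

theorem hy (sy : ∀ i j, k2 i j = k2 j i) (i : Fin n) : HD ((0, Pi.single i 1) : VV n)
    (Kf k2 Y W W0) (fun z => (1 / 2 : ℂ) • ∑ a, ∑ b, (qq a z * qq b z) • pdm i (k2 a b) z.2
      - ∑ b, qq b z • k2 i b z.2 + ∑ a, Y a z.1 * pdm i (W a) z.2 + pdm i W0 z.2) := by
  have h := ((HD.smulc (1 / 2) (HD.sum fun a => HD.sum fun b =>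
    HD.smul ((hs_qy a i).mul (hs_qy b i)) (hd_y2 (sk a b) i))).add
    (HD.sum fun a => (hd_y1 (sY a) i).mul (hd_y2 (sW a) i))).add (hd_y2 s0 i)
  refine h.congr fun z => ?_
  simp only [smul_zero, add_zero, zero_add, mul_zero, add_smul, Finset.sum_add_distrib, ite_mul,
    neg_mul, one_mul, zero_mul, mul_ite, mul_one, mul_neg, ite_smul, zero_smul, neg_smul,
    Finset.sum_ite_eq', Finset.mem_univ, if_true, Finset.sum_ite_irrel, Finset.sum_const_zero,
    Finset.sum_neg_distrib]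
  have e : ∑ x, qq x z • k2 x i z.2 = ∑ x, qq x z • k2 i x z.2 :=
    Finset.sum_congr rfl fun b _ => by rw [sy b i]
  rw [e]
  module

theorem dx1 (sy : ∀ i j, k2 i j = k2 j i) (i : Fin n) : dxk i (Kf k2 Y W W0) =
    fun z => ∑ b, qq b z • k2 i b z.2 + ∑ a, pdm i (Y a) z.1 * W a z.2 :=
  (hx sk sY sW s0 sy i).eq

theorem dy1 (sy : ∀ i j, k2 i j = k2 j i) (i : Fin n) : dyk i (Kf k2 Y W W0) =
    fun z => (1 / 2 : ℂ) • ∑ a, ∑ b, (qq a z * qq b z) • pdm i (k2 a b) z.2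
      - ∑ b, qq b z • k2 i b z.2 + ∑ a, Y a z.1 * pdm i (W a) z.2 + pdm i W0 z.2 :=
  (hy sk sY sW s0 sy i).eq

theorem dxx (sy : ∀ i j, k2 i j = k2 j i) (i j : Fin n) : dxk i (dxk j (Kf k2 Y W W0)) =
    fun z => k2 j i z.2 + ∑ a, pdm i (pdm j (Y a)) z.1 * W a z.2 := by
  rw [dx1 sk sY sW s0 sy j]
  have h := (HD.sum fun b => HD.smul (hs_qx b i) (hd_x2 (sk j b) i)).add
    (HD.sum fun a => (hd_x1 (smC_pdm (sY a) j) i).mul (hd_x2 (sW a) i))
  refine (h.congr fun z => ?_).eq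
  simp only [smul_zero, add_zero, mul_zero, ite_smul, one_smul, zero_smul, Finset.sum_ite_eq',
    Finset.mem_univ, if_true]

theorem dxy (sy : ∀ i j, k2 i j = k2 j i) (i j : Fin n) : dxk i (dyk j (Kf k2 Y W W0)) =
    fun z => ∑ b, qq b z • pdm j (k2 i b) z.2 - k2 j i z.2
      + ∑ a, pdm i (Y a) z.1 * pdm j (W a) z.2 := by
  rw [dy1 sk sY sW s0 sy j]
  have h := (((HD.smulc (1 / 2) (HD.sum fun a => HD.sum fun b =>
    HD.smul ((hs_qx a i).mul (hs_qx b i)) (hd_x2 (smC_pdm (sk a b) j) i))).sub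
    (HD.sum fun b => HD.smul (hs_qx b i) (hd_x2 (sk j b) i))).add
    (HD.sum fun a => (hd_x1 (sY a) i).mul (hd_x2 (smC_pdm (sW a) j) i))).add
    (hd_x2 (smC_pdm s0 j) i)
  refine (h.congr fun z => ?_).eq
  simp only [smul_zero, add_zero, mul_zero, add_smul, Finset.sum_add_distrib, ite_mul, one_mul,
    zero_mul, mul_ite, mul_one, ite_smul, one_smul, zero_smul, Finset.sum_ite_eq',
    Finset.mem_univ, if_true, Finset.sum_ite_irrel, Finset.sum_const_zero]
  have e : ∑ x, qq x z • pdm j (k2 x i) z.2 = ∑ x, qq x z • pdm j (k2 i x) z.2 :=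
    Finset.sum_congr rfl fun b _ => by rw [sy b i]
  rw [e]
  module

theorem dyy (sy : ∀ i j, k2 i j = k2 j i) (i j : Fin n) : dyk i (dyk j (Kf k2 Y W W0)) =
    fun z => (1 / 2 : ℂ) • ∑ a, ∑ b, (qq a z * qq b z) • pdm i (pdm j (k2 a b)) z.2
      - ∑ b, qq b z • pdm j (k2 i b) z.2 - ∑ b, qq b z • pdm i (k2 j b) z.2 + k2 j i z.2
      + ∑ a, Y a z.1 * pdm i (pdm j (W a)) z.2 + pdm i (pdm j W0) z.2 := by
  rw [dy1 sk sY sW s0 sy j]
  have h := (((HD.smulc (1 / 2) (HD.sum fun a => HD.sum fun b =>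
    HD.smul ((hs_qy a i).mul (hs_qy b i)) (hd_y2 (smC_pdm (sk a b) j) i))).sub
    (HD.sum fun b => HD.smul (hs_qy b i) (hd_y2 (sk j b) i))).add
    (HD.sum fun a => (hd_y1 (sY a) i).mul (hd_y2 (smC_pdm (sW a) j) i))).add
    (hd_y2 (smC_pdm s0 j) i)
  refine (h.congr fun z => ?_).eq
  simp only [smul_zero, add_zero, zero_add, mul_zero, add_smul, Finset.sum_add_distrib, ite_mul,
    neg_mul, one_mul, zero_mul, mul_ite, mul_one, mul_neg, ite_smul, one_smul, zero_smul, neg_smul,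
    Finset.sum_ite_eq', Finset.mem_univ, if_true, Finset.sum_ite_irrel, Finset.sum_const_zero,
    Finset.sum_neg_distrib]
  have e : ∑ x, qq x z • pdm j (k2 x i) z.2 = ∑ x, qq x z • pdm j (k2 i x) z.2 :=
    Finset.sum_congr rfl fun b _ => by rw [sy b i]
  rw [e]
  module

theorem smK_Kf : SmK univ (Kf k2 Y W W0) := by
  intro a b
  refine ContDiff.contDiffOn ?_
  unfold Kf
  simp only [Matrix.add_apply, Matrix.smul_apply, Matrix.sum_apply, Matrix.mul_apply, smul_eq_mul]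
  have hq : ∀ a : Fin n, ContDiff ℝ ∞ (qq a : VV n → ℂ) := fun a => (qL a).contDiff
  refine ContDiff.add (ContDiff.add (contDiff_const.mul ?_) ?_) ((s0 a b).comp contDiff_snd)
  · exact ContDiff.sum fun c _ => ContDiff.sum fun d _ =>
      ((hq c).mul (hq d)).mul ((sk c d a b).comp contDiff_snd)
  · exact ContDiff.sum fun c _ => ContDiff.sum fun d _ =>
      (((sY c) a d).comp contDiff_fst).mul (((sW c) d b).comp contDiff_snd)

end fn

end Vale.Agent.P088.PJ.H605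
end
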