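import Vale.Agent.P088.R2.H605.V.Kop

/-!
# P088, two arbitrary pairs: the value of the form on the approximate solution (row KLA)
-/

open MeasureTheory Set
open scoped ContDiff Matrix

noncomputable section

namespace Vale.Agent.P088.PJ.H605

open Vale.Agent.P088.LR Vale.Agent.P088.LR.U Vale.Agent.P088.LR.H158
open Vale.Agent.P088.HY (VV Bs Bn Un DB)

variable {n N : ℕ}

theorem smC_sum {ι : Type*} [Fintype ι] {F : ι → MC n N} (h : ∀ i, SmC (F i)) :
    SmC (fun x => ∑ i, F i x) := by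
  intro a b
  simp only [Matrix.sum_apply]
  exact ContDiff.sum fun i _ => h i a b

theorem smC_add {F G : MC n N} (hF : SmC F) (hG : SmC G) : SmC (fun x => F x + G x) :=
  fun a b => (hF a b).add (hG a b)

theorem smC_sub {F G : MC n N} (hF : SmC F) (hG : SmC G) : SmC (fun x => F x - G x) :=
  fun a b => (hF a b).sub (hG a b)

theorem smC_smulr {s : V n → ℝ} (hs : ContDiff ℝ ∞ s) {P : MC n N} (hP : SmC P) :
    SmC (fun x => (s x : ℂ) • P x) :=
  fun a b => (Complex.ofRealCLM.contDiff.comp hs).mul (hP a b)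

theorem contDiff_trace {C : MC n N} (hC : SmC C) : ContDiff ℝ ∞ fun x => (C x).trace := by
  unfold Matrix.trace
  exact ContDiff.sum fun a _ => hC a a

theorem pd_trace {C : MC n N} (hC : SmC C) (i : Fin n) (x : V n) :
    pd i (fun x => (C x).trace) x = (pdm i C x).trace := by
  have e : (fun x => (C x).trace) = fun x => ∑ a, C x a a := rfl
  rw [e, pd_sum fun a _ => dfa (hC a a) x]
  rfl

/-- The fields of the divergence. -/
def Uf (Z : Fin n → Fin n → MC n N) (Y : MC n N) (i : Fin n) : MC n N := fun x =>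
  ∑ l, Z i l x * pdm l Y x

/-- The fields of the divergence. -/
def Ef (T : Fin n → Fin n → MC n N) (W : MC n N) (i : Fin n) : MC n N := fun x =>
  ∑ l, pdm l W x * T l i x

theorem smC_Uf {Z : Fin n → Fin n → MC n N} (sZ : ∀ i j, SmC (Z i j)) {Y : MC n N} (sY : SmC Y)
    (i : Fin n) : SmC (Uf Z Y i) := smC_sum fun l => SmC_mul (sZ i l) (smC_pdm sY l)

theorem smC_Ef {T : Fin n → Fin n → MC n N} (sT : ∀ i j, SmC (T i j)) {W : MC n N} (sW : SmC W)
    (i : Fin n) : SmC (Ef T W i) := smC_sum fun l => SmC_mul (smC_pdm sW l) (sT l i)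

/-- The vector field. -/
def Hf (Z T : Fin n → Fin n → MC n N) (κ : Fin n → MC n N) (Y D W : MC n N) (i : Fin n) :
    V n → ℂ := fun x =>
  (Uf Z Y i x * W x + Uf T D i x * W x + κ i x * D x * W x - D x * Ef T W i x).trace

theorem smC_in {Z T : Fin n → Fin n → MC n N} {κ : Fin n → MC n N} {Y D W : MC n N}
    (sZ : ∀ i j, SmC (Z i j)) (sT : ∀ i j, SmC (T i j)) (sκ : ∀ i, SmC (κ i)) (sY : SmC Y)
    (sD : SmC D) (sW : SmC W) (i : Fin n) :
    SmC (fun x => Uf Z Y i x * W x + Uf T D i x * W x + κ i x * D x * W x - D x * Ef T W i x) :=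
  smC_sub (smC_add (smC_add (SmC_mul (smC_Uf sZ sY i) sW) (SmC_mul (smC_Uf sT sD i) sW))
    (SmC_mul (SmC_mul (sκ i) sD) sW)) (SmC_mul sD (smC_Ef sT sW i))

/-- The pointwise identity. -/
theorem pt_id {Z T : Fin n → Fin n → MC n N} {q κ : Fin n → MC n N} {Y D W : MC n N}
    (sZ : ∀ i j, SmC (Z i j)) (sT : ∀ i j, SmC (T i j)) (sκ : ∀ i, SmC (κ i)) (sY : SmC Y)
    (sD : SmC D) (sW : SmC W) {x : V n} (hA : MoC Z q Y x = -MoC T κ D x)
    (hC : (∑ i, pdm i (κ i) x) * D x = 0) :
    ∑ i, pd i (Hf Z T κ Y D W i) x =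
      (∑ i, ∑ j, (Z j i x * (pdm i Y x * pdm j W x)).trace)
        - ∑ i, (q i x * (pdm i Y x * W x)).trace - (D x * MtC T κ W x).trace := by
  have h1 : ∀ i, pd i (Hf Z T κ Y D W i) x =
      ((pdm i (Uf Z Y i) x * W x + Uf Z Y i x * pdm i W x) +
        (pdm i (Uf T D i) x * W x + Uf T D i x * pdm i W x) +
        ((pdm i (κ i) x * D x + κ i x * pdm i D x) * W x + κ i x * D x * pdm i W x) -
        (pdm i D x * Ef T W i x + D x * pdm i (Ef T W i) x)).trace := by
    intro i
    unfold Hf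
    rw [pd_trace (smC_in sZ sT sκ sY sD sW i)]
    congr 1
    exact pdm_of_HD (((((hd_pdm (smC_Uf sZ sY i) i).mul (hd_pdm sW i)).add
      ((hd_pdm (smC_Uf sT sD i) i).mul (hd_pdm sW i))).add
      (((hd_pdm (sκ i) i).mul (hd_pdm sD i)).mul (hd_pdm sW i))).sub
      ((hd_pdm sD i).mul (hd_pdm (smC_Ef sT sW i) i))) x
  simp only [h1]
  simp only [Matrix.add_mul, Matrix.trace_add, Matrix.trace_sub, Finset.sum_add_distrib,
    Finset.sum_sub_distrib]
  -- (A)
  have hA' : (∑ i, (pdm i (Uf Z Y i) x * W x).trace) + ∑ i, (q i x * (pdm i Y x * W x)).trace =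
      -((∑ i, (pdm i (Uf T D i) x * W x).trace) + ∑ i, (κ i x * pdm i D x * W x).trace) := by
    have e1 : (MoC Z q Y x * W x).trace = (∑ i, (pdm i (Uf Z Y i) x * W x).trace) +
        ∑ i, (q i x * (pdm i Y x * W x)).trace := by
      unfold MoC
      rw [Matrix.add_mul, Matrix.trace_add, Finset.sum_mul, Finset.sum_mul, Matrix.trace_sum,
        Matrix.trace_sum]
      simp only [Matrix.mul_assoc]
      rfl
    have e2 : (MoC T κ D x * W x).trace = (∑ i, (pdm i (Uf T D i) x * W x).trace) +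
        ∑ i, (κ i x * pdm i D x * W x).trace := by
      unfold MoC
      rw [Matrix.add_mul, Matrix.trace_add, Finset.sum_mul, Finset.sum_mul, Matrix.trace_sum,
        Matrix.trace_sum]
      rfl
    rw [← e1, ← e2, hA, Matrix.neg_mul, Matrix.trace_neg]
  -- (B)
  have hB : ∑ i, (Uf T D i x * pdm i W x).trace = ∑ i, (pdm i D x * Ef T W i x).trace := by
    unfold Uf Ef
    simp only [Finset.sum_mul, Finset.mul_sum, Matrix.trace_sum]
    rw [Finset.sum_comm]
    refine Finset.sum_congr rfl fun i _ => Finset.sum_congr rfl fun j _ => ?_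
    rw [Matrix.mul_assoc, Matrix.trace_mul_comm, Matrix.mul_assoc]
  -- (C)
  have hC' : ∑ i, (pdm i (κ i) x * D x * W x).trace = 0 := by
    rw [← Matrix.trace_sum, ← Finset.sum_mul, ← Finset.sum_mul, hC, Matrix.zero_mul,
      Matrix.trace_zero]
  -- (D)
  have hD : (D x * MtC T κ W x).trace = ∑ i, (D x * pdm i (Ef T W i) x).trace -
      ∑ i, (κ i x * D x * pdm i W x).trace := by
    unfold MtC
    rw [Matrix.mul_sub, Matrix.trace_sub, Finset.mul_sum, Finset.mul_sum, Matrix.trace_sum,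
      Matrix.trace_sum]
    congr 1
    refine Finset.sum_congr rfl fun i _ => ?_
    rw [← Matrix.mul_assoc, Matrix.trace_mul_comm, Matrix.mul_assoc]
  have hE : ∑ i, (Uf Z Y i x * pdm i W x).trace =
      ∑ i, ∑ j, (Z j i x * (pdm i Y x * pdm j W x)).trace := by
    unfold Uf
    simp only [Finset.sum_mul, Matrix.trace_sum, Matrix.mul_assoc]
    exact Finset.sum_comm
  rw [hB, hC', hD, hE]
  linear_combination hA'

end Vale.Agent.P088.PJ.H605
end
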