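import Vale.Agent.P088.R2.H605.V.Bds

/-!
# P088, two arbitrary pairs: the approximate solution (row V-KLA)
-/

open MeasureTheory Set
open scoped ContDiff Matrix

noncomputable section

namespace Vale.Agent.P088.PJ.H605

open Vale.Agent.P088.LR Vale.Agent.P088.LR.U Vale.Agent.P088.LR.H158
open Vale.Agent.P088.HY (VV Bs Bn Un DB)

variable {n N : ℕ}

/-! ### the ball -/

theorem isClosed_bl0 : IsClosed (bl0 n) := by
  have h : Continuous (HY.sq : V n → ℝ) := by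
    unfold HY.sq
    fun_prop
  exact isClosed_le h continuous_const

theorem bounded_bl0 : Bornology.IsBounded (bl0 n) := by
  refine (Metric.isBounded_closedBall (x := (0 : V n)) (r := 1 / 2)).subset fun x hx => ?_
  rw [mem_closedBall_zero_iff, pi_norm_le_iff_of_nonneg (by norm_num)]
  intro j
  have h1 : x j ^ 2 ≤ HY.sq x :=
    Finset.single_le_sum (f := fun j => x j ^ 2) (fun _ _ => sq_nonneg _) (Finset.mem_univ j)
  have h2 : HY.sq x ≤ 1 / 4 := hx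
  rw [Real.norm_eq_abs]
  refine abs_le_of_sq_le_sq ?_ (by norm_num)
  nlinarith

theorem bl0_sub {ρ : ℝ} (hρ : 1 ≤ ρ) : bl0 n ⊆ Bs n ρ := by
  intro x hx
  have h2 : HY.sq x ≤ 1 / 4 := hx
  have : (1 : ℝ) ≤ ρ ^ 2 := one_le_pow₀ hρ
  show HY.sq x < ρ ^ 2
  linarith

theorem Bs_mono : Bs n (7 / 4) ⊆ Bs n 2 := by
  intro x hx
  have h2 : HY.sq x < (7 / 4 : ℝ) ^ 2 := hx
  show HY.sq x < (2 : ℝ) ^ 2
  linarith

/-- derivatives of a function which vanishes off the closed ball -/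
theorem pdm_off {U : MC n N} (h : ∀ x ∉ bl0 n, U x = 0) {x : V n} (hx : x ∉ bl0 n) (i : Fin n) :
    pdm i U x = 0 := by
  have h1 := pdm_congr (P := U) (Q := fun _ => 0) isClosed_bl0.isOpen_compl (fun y hy => h y hy)
    (show x ∈ (bl0 n)ᶜ from hx) i
  rw [h1, pdm_const]

/-- derivatives of a smooth function which vanishes off `Ω` -/
theorem pdm_reg {Ω : Set (V n)} (hi : interior (closure Ω) = Ω) {U : MC n N} (hU : SmC U)
    (h : ∀ x ∉ Ω, U x = 0) {x : V n} (hx : x ∉ Ω) (i : Fin n) : pdm i U x = 0 := by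
  ext a b
  simp only [pdm, pd, Matrix.of_apply, Matrix.zero_apply]
  rw [fderiv_zero_off hi (hU a b) (fun y hy => by rw [h y hy]; rfl) hx]
  rfl

theorem MoC_add {T : Fin n → Fin n → MC n N} (sT : ∀ i j, SmC (T i j)) (κ : Fin n → MC n N)
    {U W : MC n N} (sU : SmC U) (sW : SmC W) (x : V n) :
    MoC T κ (fun x => U x + W x) x = MoC T κ U x + MoC T κ W x := by
  have e0 : ∀ j, pdm j (fun x => U x + W x) = fun x => pdm j U x + pdm j W x := fun j =>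
    ((hd_pdm sU j).add (hd_pdm sW j)).eq
  have e1 : ∀ i, pdm i (fun y => ∑ j, T i j y * (pdm j U y + pdm j W y)) x =
      pdm i (Uf T U i) x + pdm i (Uf T W i) x := by
    intro i
    have e2 : (fun y => ∑ j, T i j y * (pdm j U y + pdm j W y)) =
        fun y => Uf T U i y + Uf T W i y := by
      funext y
      unfold Uf
      simp only [Matrix.mul_add, Finset.sum_add_distrib]
    rw [e2]
    exact pdm_of_HD ((hd_pdm (smC_Uf sT sU i) i).add (hd_pdm (smC_Uf sT sW i) i)) x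
  unfold MoC
  simp only [e0]
  simp only [e1]
  simp only [Matrix.mul_add, Finset.sum_add_distrib]
  unfold Uf
  abel

theorem MoC_subT {T₁ T₂ : Fin n → Fin n → MC n N} (s₁ : ∀ i j, SmC (T₁ i j))
    (s₂ : ∀ i j, SmC (T₂ i j)) (κ₁ κ₂ : Fin n → MC n N) {U : MC n N} (sU : SmC U) (x : V n) :
    MoC (fun i j x => T₂ i j x - T₁ i j x) (fun i x => κ₂ i x - κ₁ i x) U x =
      MoC T₂ κ₂ U x - MoC T₁ κ₁ U x := by
  have e1 : ∀ i, pdm i (fun y => ∑ j, (T₂ i j y - T₁ i j y) * pdm j U y) x =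
      pdm i (Uf T₂ U i) x - pdm i (Uf T₁ U i) x := by
    intro i
    have e2 : (fun y => ∑ j, (T₂ i j y - T₁ i j y) * pdm j U y) =
        fun y => Uf T₂ U i y - Uf T₁ U i y := by
      funext y
      unfold Uf
      simp only [Matrix.sub_mul, Finset.sum_sub_distrib]
    rw [e2]
    exact pdm_of_HD ((hd_pdm (smC_Uf s₂ sU i) i).sub (hd_pdm (smC_Uf s₁ sU i) i)) x
  unfold MoC
  simp only [e1]
  simp only [Matrix.sub_mul, Finset.sum_sub_distrib]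
  unfold Uf
  abel

section RPs

variable {k : ℕ} {δ : ℝ} {Ω : Set (V n)} {s₁ s₂ : MF n} {P₁ P₂ : MC n N} {G₁ G₂ : Fin n → MC n N}
  {Y D : Fin n → MC n N}

theorem smC_Zt (h : RP k δ Ω s₁ s₂ P₁ P₂ G₁ G₂ Y D) (i j : Fin n) :
    SmC (Zt s₁ s₂ P₁ P₂ i j) :=
  smC_sub (smC_TP h.d₂.ss h.d₂.sP i j) (smC_TP h.d₁.ss h.d₁.sP i j)

theorem smC_Qt (h : RP k δ Ω s₁ s₂ P₁ P₂ G₁ G₂ Y D) (i : Fin n) :
    SmC (Qt s₁ s₂ G₁ G₂ i) :=
  smC_sub (smC_kp h.d₂.ss h.d₂.sG i) (smC_kp h.d₁.ss h.d₁.sG i)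

theorem Zt_off (h : RP k δ Ω s₁ s₂ P₁ P₂ G₁ G₂ Y D) {x : V n} (hx : x ∉ Ω) (i j : Fin n) :
    Zt s₁ s₂ P₁ P₂ i j x = 0 := by
  unfold Zt TP
  rw [h.os x hx, h.oP x hx, sub_self]

theorem Qt_off (h : RP k δ Ω s₁ s₂ P₁ P₂ G₁ G₂ Y D) {x : V n} (hx : x ∉ Ω) (i : Fin n) :
    Qt s₁ s₂ G₁ G₂ i x = 0 := by
  unfold Qt kp
  simp only [h.os x hx, h.oG _ x hx, sub_self]

/-- The gauge identity `(M₂ - M₁) Y_a = - M₂ D_a`. -/
theorem gauge_id (h : RP k δ Ω s₁ s₂ P₁ P₂ G₁ G₂ Y D) (a : Fin n) (x : V n) :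
    MoC (Zt s₁ s₂ P₁ P₂) (Qt s₁ s₂ G₁ G₂) (Y a) x = -MoC (TP s₂ P₂) (kp s₂ G₂) (D a) x := by
  have sT₁ := smC_TP h.d₁.ss h.d₁.sP
  have sT₂ := smC_TP h.d₂.ss h.d₂.sP
  by_cases hx : x ∈ Ω
  · have h1 : MoC (Zt s₁ s₂ P₁ P₂) (Qt s₁ s₂ G₁ G₂) (Y a) x = _ :=
      MoC_subT sT₁ sT₂ (kp s₁ G₁) (kp s₂ G₂) (h.sY a) x
    have h2 := h.gi a x hx
    rw [MoC_add sT₂ _ (h.sY a) (h.sD a)] at h2
    rw [h1, h.hY a x (bl0_sub (by norm_num) (h.sub hx)), sub_zero]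
    exact eq_neg_of_add_eq_zero_left h2
  · have h1 : MoC (Zt s₁ s₂ P₁ P₂) (Qt s₁ s₂ G₁ G₂) (Y a) x = 0 := by
      unfold MoC
      have e1 : ∀ i, pdm i (fun y => ∑ j, Zt s₁ s₂ P₁ P₂ i j y * pdm j (Y a) y) x = 0 := fun i =>
        pdm_reg h.reg (smC_Uf (smC_Zt h) (h.sY a) i) (fun y hy => by
          unfold Uf
          simp only [Zt_off h hy, Matrix.zero_mul, Finset.sum_const_zero]) hx i
      simp only [e1, Qt_off h hx, Matrix.zero_mul, Finset.sum_const_zero, add_zero]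
    have h2 : MoC (TP s₂ P₂) (kp s₂ G₂) (D a) x = 0 := by
      have e0 : ∀ y ∉ Ω, ∀ j, pdm j (D a) y = 0 := fun y hy j =>
        pdm_reg h.reg (h.sD a) (h.oD a) hy j
      unfold MoC
      have e1 : ∀ i, pdm i (fun y => ∑ j, TP s₂ P₂ i j y * pdm j (D a) y) x = 0 := fun i =>
        pdm_reg h.reg (smC_Uf sT₂ (h.sD a) i) (fun y hy => by
          unfold Uf
          simp only [e0 y hy, Matrix.mul_zero, Finset.sum_const_zero]) hx i
      simp only [e1, e0 x hx, Matrix.mul_zero, Finset.sum_const_zero, add_zero]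
    rw [h1, h2, neg_zero]

theorem div_id (h : RP k δ Ω s₁ s₂ P₁ P₂ G₁ G₂ Y D) (a : Fin n) (x : V n) :
    (∑ i, pdm i (kp s₂ G₂ i) x) * D a x = 0 := by
  by_cases hx : x ∈ Ω
  · rw [h.d₂.dq x hx, Matrix.zero_mul]
  · rw [h.oD a x hx, Matrix.mul_zero]

theorem Hf_off (h : RP k δ Ω s₁ s₂ P₁ P₂ G₁ G₂ Y D) (a : Fin n) (W : MC n N) (i : Fin n) {x : V n}
    (hx : x ∉ bl0 n) : Hf (Zt s₁ s₂ P₁ P₂) (TP s₂ P₂) (kp s₂ G₂) (Y a) (D a) W i x = 0 := by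
  have hxΩ : x ∉ Ω := fun hh => hx (h.sub hh)
  have hD : D a x = 0 := h.oD a x hxΩ
  have hD' : ∀ l, pdm l (D a) x = 0 := fun l =>
    pdm_off (fun y hy => h.oD a y fun hh => hy (h.sub hh)) hx l
  unfold Hf Uf
  simp only [Zt_off h hxΩ, hD, hD', Matrix.zero_mul, Matrix.mul_zero, Finset.sum_const_zero,
    add_zero, sub_zero, Matrix.trace_zero]

theorem contDiff_Hf (h : RP k δ Ω s₁ s₂ P₁ P₂ G₁ G₂ Y D) (a : Fin n) {W : MC n N} (sW : SmC W)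
    (i : Fin n) :
    ContDiff ℝ ∞ (Hf (Zt s₁ s₂ P₁ P₂) (TP s₂ P₂) (kp s₂ G₂) (Y a) (D a) W i) :=
  contDiff_trace (smC_in (smC_Zt h) (smC_TP h.d₂.ss h.d₂.sP) (smC_kp h.d₂.ss h.d₂.sG) (h.sY a)
    (h.sD a) sW i)

/-- The form on the approximate solution, pointwise. -/
theorem dgB_Kf (h : RP k δ Ω s₁ s₂ P₁ P₂ G₁ G₂ Y D) {k2 : Fin n → Fin n → MC n N}
    {W : Fin n → MC n N} {W0 : MC n N} (sk : ∀ i j, SmC (k2 i j)) (sy : ∀ i j, k2 i j = k2 j i)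
    (sW : ∀ a, SmC (W a)) (s0 : SmC W0) (x : V n) :
    dgB s₁ s₂ P₁ P₂ G₁ G₂ (Kf k2 Y W W0) x =
      -(∑ i, ∑ j, (Zt s₁ s₂ P₁ P₂ i j x * k2 i j x).trace)
      + ∑ a, (D a x * MtC (TP s₂ P₂) (kp s₂ G₂) (W a) x).trace
      + ∑ a, ∑ i, pd i (Hf (Zt s₁ s₂ P₁ P₂) (TP s₂ P₂) (kp s₂ G₂) (Y a) (D a) (W a) i) x := by
  have hq : ∀ b : Fin n, qq b (x, x) = 0 := fun b => by simp [qq]
  have h1 : ∀ a, ∑ i, pd i (Hf (Zt s₁ s₂ P₁ P₂) (TP s₂ P₂) (kp s₂ G₂) (Y a) (D a) (W a) i) x = _ :=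
    fun a => pt_id (smC_Zt h) (smC_TP h.d₂.ss h.d₂.sP) (smC_kp h.d₂.ss h.d₂.sG) (h.sY a) (h.sD a)
      (sW a) (gauge_id h a x) (div_id h a x)
  simp only [h1]
  unfold dgB
  simp only [dxy sk h.sY sW s0 sy]
  simp only [dx1 sk h.sY sW s0 sy, hq, zero_smul, Finset.sum_const_zero, zero_sub, zero_add,
    Matrix.mul_add, Matrix.mul_neg, Matrix.trace_add, Matrix.trace_neg, Finset.sum_add_distrib,
    Finset.sum_neg_distrib, Finset.mul_sum, Matrix.trace_sum, Finset.sum_sub_distrib]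
  have e1 : ∑ i, ∑ j, (Zt s₁ s₂ P₁ P₂ j i x * k2 j i x).trace =
      ∑ i, ∑ j, (Zt s₁ s₂ P₁ P₂ i j x * k2 i j x).trace := Finset.sum_comm
  have e2 : ∑ i, ∑ j, ∑ a, (Zt s₁ s₂ P₁ P₂ j i x * (pdm i (Y a) x * pdm j (W a) x)).trace =
      ∑ a, ∑ i, ∑ j, (Zt s₁ s₂ P₁ P₂ j i x * (pdm i (Y a) x * pdm j (W a) x)).trace := by
    symm
    rw [Finset.sum_comm]
    exact Finset.sum_congr rfl fun i _ => Finset.sum_comm
  have e3 : ∑ i, ∑ a, (Qt s₁ s₂ G₁ G₂ i x * (pdm i (Y a) x * W a x)).trace =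
      ∑ a, ∑ i, (Qt s₁ s₂ G₁ G₂ i x * (pdm i (Y a) x * W a x)).trace := Finset.sum_comm
  rw [e1, e2, e3]
  ring

theorem integ {f : V n → ℂ} (hf : Continuous f) (h0 : ∀ x ∉ bl0 n, f x = 0) : Integrable f :=
  hf.integrable_of_hasCompactSupport (HasCompactSupport.intro
    (Metric.isCompact_of_isClosed_isBounded isClosed_bl0 bounded_bl0) h0)

end RPs

theorem smC_smulc (c : ℂ) {P : MC n N} (hP : SmC P) : SmC (fun x => c • P x) :=
  fun a b => contDiff_const.mul (hP a b)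

theorem smC_rhb {s : MF n} (hs : SmM s) {P : MC n N} (hP : SmC P) {G : Fin n → MC n N}
    (hG : ∀ i, SmC (G i)) {k2 : Fin n → Fin n → MC n N} (sk : ∀ i j, SmC (k2 i j)) (b : Fin n) :
    SmC (rhb s P G k2 b) := by
  unfold rhb
  refine smC_add (smC_smulc 2 (smC_sum fun i => smC_sum fun j =>
    SmC_mul (smC_pdm (sk j b) i) (smC_TP hs hP i j))) (smC_sum fun j => SmC_mul (sk j b)
      (smC_sub (smC_sum fun i => smC_pdm (smC_TP hs hP i j) i) (smC_kp hs hG j)))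

theorem rhb_off {Ω : Set (V n)} (hO : Ω ⊆ bl0 n) (s : MF n) (P : MC n N) (G : Fin n → MC n N)
    {k2 : Fin n → Fin n → MC n N} (z : ∀ i j, ∀ x ∉ Ω, k2 i j x = 0) (b : Fin n) {x : V n}
    (hx : x ∉ bl0 n) : rhb s P G k2 b x = 0 := by
  have h0 : ∀ i j, ∀ x ∉ bl0 n, k2 i j x = 0 := fun i j x hx => z i j x fun h => hx (hO h)
  unfold rhb
  simp only [pdm_off (h0 _ _) hx, h0 _ _ x hx, Matrix.zero_mul, Finset.sum_const_zero, smul_zero,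
    add_zero]

/-- **(V-KLA)** The approximate solution. -/
theorem rowKLA (hEX : RowEX) : RowKLA := by
  intro n N hn
  obtain ⟨k, δ₀, hδ₀, hEX⟩ := hEX n N hn
  obtain ⟨δ₁, hδ₁, -, -, hco⟩ := coK_ex n N k hδ₀
  refine ⟨k + 1, δ₁, hδ₁, ?_⟩
  intro Ω s₁ s₂ P₁ P₂ G₁ G₂ Y D h Γ sΓ hΓ k2 hk
  obtain ⟨hu₁, -, -, -⟩ := hco δ₁ hδ₁.le le_rfl Ω s₁ P₁ G₁ h.d₁
  obtain ⟨hu₂, si₂, -, hc₂⟩ := hco δ₁ hδ₁.le le_rfl Ω s₂ P₂ G₂ h.d₂
  obtain ⟨β, hβ⟩ : ∃ β, β = bR s₂ P₂ G₂ := ⟨_, rfl⟩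
  obtain ⟨R, hR⟩ : ∃ R : Fin n → MC n N, R = fun b x => rhb s₂ P₂ G₂ k2 b x * (P₂ x)⁻¹ := ⟨_, rfl⟩
  have sR : ∀ b, SmC (R b) := fun b => by
    rw [hR]
    exact SmC_mul (smC_rhb h.d₂.ss h.d₂.sP h.d₂.sG hk.sm b) si₂
  have R0 : ∀ b, ∀ x ∉ bl0 n, R b x = 0 := fun b x hx => by
    rw [hR]
    show rhb s₂ P₂ G₂ k2 b x * (P₂ x)⁻¹ = 0
    rw [rhb_off h.sub _ _ _ hk.z b hx, Matrix.zero_mul]
  have sρ : ∀ a, SmC (fun x => ∑ b, Γ a b x * R b x) := fun a =>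
    smC_sum fun b => SmC_mul (sΓ a b) (sR b)
  have ρ0 : ∀ a, ∀ x ∉ bl0 n, ∑ b, Γ a b x * R b x = 0 := fun a x hx => by
    simp only [R0 _ x hx, Matrix.mul_zero, Finset.sum_const_zero]
  have k0 : ∀ i j, ∀ x ∉ bl0 n, k2 i j x = 0 := fun i j x hx => hk.z i j x fun hh => hx (h.sub hh)
  choose W sW hW using fun a => hEX s₂ β (hβ ▸ hc₂) (fun x => ∑ b, Γ a b x * R b x) (sρ a) (ρ0 a)
  obtain ⟨W0, s0, hW0⟩ := hEX s₂ β (hβ ▸ hc₂)
    (fun x => -(∑ i, ∑ j, (s₂ x i j : ℂ) • k2 i j x + ∑ a, Y a x * ∑ b, Γ a b x * R b x))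
    (by
      have h1 := smC_add (smC_sum fun i => smC_sum fun j => smC_smulr (h.d₂.ss i j) (hk.sm i j))
        (smC_sum fun a => SmC_mul (h.sY a) (sρ a))
      exact fun a b => (h1 a b).neg)
    (fun x hx => by
      simp only [k0 _ _ x hx, ρ0 _ x hx, smul_zero, Matrix.mul_zero, Finset.sum_const_zero,
        add_zero, neg_zero])
  refine ⟨Kf k2 Y W W0, smK_Kf hk.sm h.sY sW s0, ?_, ?_, ?_⟩
  · intro z hz
    have hz1 : z.1 ∈ Bs n 2 := Bs_mono hz.1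
    refine eqL1 hk.sm h.sY sW s0 hk.sy hk.tf (bL s₁ P₁ G₁) fun a => ?_
    have e1 := h.hY a z.1 hz1
    rw [MoC_eq h.d₁.ss h.d₁.sP G₁ (h.sY a) (hu₁ z.1)] at e1
    have e2 := congrArg (fun A => (P₁ z.1)⁻¹ * A) e1
    simp only [Matrix.mul_zero] at e2
    rw [← Matrix.mul_assoc, Matrix.nonsing_inv_mul _ (hu₁ z.1), Matrix.one_mul] at e2
    exact e2
  · intro z hz
    have e1 := eqL2 (Γ := Γ) (R := R) hk.sm h.sY sW s0 hk.sy h.d₂.sy β (z := z)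
      (fun l b => hΓ l b z.2)
      (fun b => by
        rw [hR, hβ]
        exact rhb_eq G₂ k2 (hu₂ z.2) b)
      (fun a => hW a z.2 hz.2) (hW0 z.2 hz.2)
    rw [← hβ, e1]
    unfold F2x
    rw [hR, hβ]
    simp only [Matrix.mul_assoc]
  · have e1 : ∀ x, ∑ a, (D a x * MtC (TP s₂ P₂) (kp s₂ G₂) (W a) x).trace =
        ∑ a, ∑ b, (D a x * (Γ a b x * rhb s₂ P₂ G₂ k2 b x)).trace := by
      intro x
      by_cases hx : x ∈ bl0 n
      · refine Finset.sum_congr rfl fun a _ => ?_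
        rw [MtC_eq h.d₂.ss h.d₂.sy h.d₂.sP G₂ (sW a) (hu₂ x), ← hβ,
          hW a x (bl0_sub (by norm_num) hx), hR]
        simp only [Finset.sum_mul, Finset.mul_sum, Matrix.trace_sum]
        refine Finset.sum_congr rfl fun b _ => ?_
        rw [Matrix.mul_assoc (Γ a b x), Matrix.mul_assoc (rhb s₂ P₂ G₂ k2 b x),
          Matrix.nonsing_inv_mul _ (hu₂ x), Matrix.mul_one]
      · have : ∀ a, D a x = 0 := fun a => h.oD a x fun hh => hx (h.sub hh)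
        simp only [this, Matrix.zero_mul, Matrix.trace_zero, Finset.sum_const_zero]
    have e2 : ∀ x, dgB s₁ s₂ P₁ P₂ G₁ G₂ (Kf k2 Y W W0) x =
      -(∑ i, ∑ j, (Zt s₁ s₂ P₁ P₂ i j x * k2 i j x).trace)
      + (∑ a, ∑ b, (D a x * (Γ a b x * rhb s₂ P₂ G₂ k2 b x)).trace)
      + ∑ a, ∑ i, pd i (Hf (Zt s₁ s₂ P₁ P₂) (TP s₂ P₂) (kp s₂ G₂) (Y a) (D a) (W a) i) x := by
      intro x
      rw [dgB_Kf h hk.sm hk.sy sW s0, e1]
    simp only [e2]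
    have i1 : Integrable (fun x => ∑ i, ∑ j, (Zt s₁ s₂ P₁ P₂ i j x * k2 i j x).trace) := by
      refine integ ?_ fun x hx => by
        simp only [k0 _ _ x hx, Matrix.mul_zero, Matrix.trace_zero, Finset.sum_const_zero]
      exact (ContDiff.sum fun i _ => ContDiff.sum fun j _ =>
        contDiff_trace (SmC_mul (smC_Zt h i j) (hk.sm i j))).continuous
    have i2 : Integrable (fun x => ∑ a, ∑ b, (D a x * (Γ a b x * rhb s₂ P₂ G₂ k2 b x)).trace) := by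
      refine integ ?_ fun x hx => by
        simp only [rhb_off h.sub _ _ _ hk.z _ hx, Matrix.mul_zero, Matrix.trace_zero,
          Finset.sum_const_zero]
      exact (ContDiff.sum fun a _ => ContDiff.sum fun b _ =>
        contDiff_trace (SmC_mul (h.sD a) (SmC_mul (sΓ a b)
          (smC_rhb h.d₂.ss h.d₂.sP h.d₂.sG hk.sm b)))).continuous
    have i3 := fun a i => integral_pd_zero bounded_bl0 (contDiff_Hf h a (sW a) i)
      (fun x hx => Hf_off h a (W a) i hx) i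
    have i4 : Integrable (fun x => ∑ a, ∑ i,
        pd i (Hf (Zt s₁ s₂ P₁ P₂) (TP s₂ P₂) (kp s₂ G₂) (Y a) (D a) (W a) i) x) :=
      integrable_finsetSum _ fun a _ => integrable_finsetSum _ fun i _ => (i3 a i).1
    have e3 : ∫ x, ∑ a, ∑ i,
        pd i (Hf (Zt s₁ s₂ P₁ P₂) (TP s₂ P₂) (kp s₂ G₂) (Y a) (D a) (W a) i) x = 0 := by
      rw [integral_finsetSum _ fun a _ => integrable_finsetSum _ fun i _ => (i3 a i).1]
      refine Finset.sum_eq_zero fun a _ => ?_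
      rw [integral_finsetSum _ fun i _ => (i3 a i).1]
      exact Finset.sum_eq_zero fun i _ => (i3 a i).2
    have e4 := integral_add (i1.neg.add i2) i4
    have e5 := integral_add i1.neg i2
    simp only [Pi.add_apply, Pi.neg_apply] at e4 e5
    rw [e4, e5, e3, integral_neg, add_zero]

end Vale.Agent.P088.PJ.H605
end
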