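import Vale.Agent.P088.R2.H605.V.Kfn

/-!
# P088, two arbitrary pairs: the equations of the approximate solution (row KLA)
-/

open MeasureTheory Set
open scoped ContDiff Matrix

noncomputable section

namespace Vale.Agent.P088.PJ.H605

open Vale.Agent.P088.LR Vale.Agent.P088.LR.U Vale.Agent.P088.LR.H158
open Vale.Agent.P088.HY (VV Bs Bn Un DB)

variable {n N : ℕ}

/-- The left operator on functions of one variable. -/
def Lc (s : MF n) (β : Fin n → MC n N) (U : MC n N) : MC n N := fun x =>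
  ∑ i, ∑ j, (s x i j : ℂ) • pdm i (pdm j U) x + ∑ i, β i x * pdm i U x

/-- The transposed operator on matrix functions. -/
def MtC (T : Fin n → Fin n → MC n N) (κ : Fin n → MC n N) (W : MC n N) : MC n N := fun x =>
  ∑ i, pdm i (fun y => ∑ j, pdm j W y * T j i y) x - ∑ i, pdm i W x * κ i x

theorem pdm_of_HD {U U' : MC n N} {i : Fin n} (h : HD (Pi.single i 1) U U') (x : V n) :
    pdm i U x = U' x := congrFun h.eq x

theorem smC_TP {s : MF n} (hs : SmM s) {P : MC n N} (hP : SmC P) (i j : Fin n) :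
    SmC (TP s P i j) := by
  intro a b
  exact (Complex.ofRealCLM.contDiff.comp (hs i j)).mul (hP a b)

theorem TP_symm {s : MF n} (hs : ∀ x, (s x).IsSymm) (P : MC n N) (i j : Fin n) :
    TP s P i j = TP s P j i := by
  funext x
  unfold TP
  rw [(hs x).apply i j]

/-- The operator `M` in non divergence form. -/
theorem MoC_eq {s : MF n} (hs : SmM s) {P : MC n N} (hP : SmC P)
    (G : Fin n → MC n N) {U : MC n N} (hU : SmC U) {x : V n} (hu : IsUnit (P x).det) :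
    MoC (TP s P) (kp s G) U x = P x * Lc s (bL s P G) U x := by
  have h1 : ∀ i, pdm i (fun y => ∑ j, TP s P i j y * pdm j U y) x =
      ∑ j, (pdm i (TP s P i j) x * pdm j U x + TP s P i j x * pdm i (pdm j U) x) := fun i =>
    pdm_of_HD (HD.sum fun j => (hd_pdm (smC_TP hs hP i j) i).mul (hd_pdm (smC_pdm hU j) i)) x
  have h2 : ∀ A : Matrix (Fin N) (Fin N) ℂ, P x * ((P x)⁻¹ * A) = A := fun A => by
    rw [← Matrix.mul_assoc, Matrix.mul_nonsing_inv _ hu, Matrix.one_mul]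
  unfold MoC Lc bL
  simp only [h1]
  rw [Matrix.mul_add, Finset.mul_sum, Finset.mul_sum]
  simp only [Finset.mul_sum, Finset.sum_add_distrib, Matrix.mul_smul, Matrix.mul_assoc, h2]
  have h3 : ∑ i, ∑ j, pdm i (TP s P i j) x * pdm j U x =
      ∑ j, (∑ i, pdm i (TP s P i j) x) * pdm j U x := by
    rw [Finset.sum_comm]
    exact Finset.sum_congr rfl fun j _ => by rw [Finset.sum_mul]
  rw [h3]
  simp only [add_mul, Finset.sum_add_distrib]
  have h4 : ∑ i, ∑ j, TP s P i j x * pdm i (pdm j U) x =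
      ∑ i, ∑ j, (s x i j : ℂ) • (P x * pdm i (pdm j U) x) := by
    unfold TP
    simp only [Matrix.smul_mul]
  rw [h4]
  abel

/-- The transposed operator in non divergence form. -/
theorem MtC_eq {s : MF n} (hs : SmM s) (hsy : ∀ x, (s x).IsSymm) {P : MC n N} (hP : SmC P)
    (G : Fin n → MC n N) {W : MC n N} (hW : SmC W) {x : V n} (hu : IsUnit (P x).det) :
    MtC (TP s P) (kp s G) W x = Rv s (bR s P G) W x * P x := by
  have h1 : ∀ i, pdm i (fun y => ∑ j, pdm j W y * TP s P j i y) x =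
      ∑ j, (pdm i (pdm j W) x * TP s P j i x + pdm j W x * pdm i (TP s P j i) x) := fun i =>
    pdm_of_HD (HD.sum fun j => (hd_pdm (smC_pdm hW j) i).mul (hd_pdm (smC_TP hs hP j i) i)) x
  have h2 : ∀ A : Matrix (Fin N) (Fin N) ℂ, A * (P x)⁻¹ * P x = A := fun A => by
    rw [Matrix.mul_assoc, Matrix.nonsing_inv_mul _ hu, Matrix.mul_one]
  unfold MtC Rv bR
  simp only [h1]
  rw [Matrix.add_mul, Finset.sum_mul, Finset.sum_mul]
  have h5 : ∀ i, pdm i W x * ((∑ l, pdm l (TP s P l i) x - kp s G i x) * (P x)⁻¹) * P x =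
      pdm i W x * (∑ l, pdm l (TP s P l i) x) - pdm i W x * kp s G i x := fun i => by
    rw [← Matrix.mul_assoc, h2, Matrix.mul_sub]
  simp only [h5, Finset.sum_add_distrib, Finset.sum_sub_distrib]
  have h3 : ∑ i, ∑ j, pdm j W x * pdm i (TP s P j i) x =
      ∑ j, pdm j W x * ∑ i, pdm i (TP s P i j) x := by
    rw [Finset.sum_comm]
    refine Finset.sum_congr rfl fun j _ => ?_
    rw [Finset.mul_sum]
    exact Finset.sum_congr rfl fun i _ => by rw [TP_symm hsy P j i]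
  have h4 : ∑ i, ∑ j, pdm i (pdm j W) x * TP s P j i x =
      ∑ i, (∑ j, (s x i j : ℂ) • pdm i (pdm j W) x) * P x := by
    refine Finset.sum_congr rfl fun i _ => ?_
    rw [Finset.sum_mul]
    refine Finset.sum_congr rfl fun j _ => ?_
    rw [TP_symm hsy P j i]
    unfold TP
    rw [Matrix.mul_smul, Matrix.smul_mul]
  rw [h3, h4]
  abel

/-- `R_b = rhb_b P⁻¹`. -/
theorem rhb_eq {s : MF n} {P : MC n N} (G : Fin n → MC n N)
    (k2 : Fin n → Fin n → MC n N) {x : V n} (hu : IsUnit (P x).det) (b : Fin n) :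
    rhb s P G k2 b x * (P x)⁻¹ = (2 : ℂ) • (∑ i, ∑ j, (s x i j : ℂ) • pdm i (k2 j b) x)
      + ∑ j, k2 j b x * bR s P G j x := by
  have h2 : ∀ A : Matrix (Fin N) (Fin N) ℂ, A * P x * (P x)⁻¹ = A := fun A => by
    rw [Matrix.mul_assoc, Matrix.mul_nonsing_inv _ hu, Matrix.mul_one]
  unfold rhb bR TP
  rw [Matrix.add_mul, Matrix.smul_mul, Finset.sum_mul, Finset.sum_mul]
  simp only [Finset.sum_mul, Matrix.mul_smul, Matrix.smul_mul, h2, Matrix.mul_assoc]

section eqs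

variable {k2 : Fin n → Fin n → MC n N} {Y W : Fin n → MC n N} {W0 : MC n N}
  (sk : ∀ i j, SmC (k2 i j)) (sY : ∀ a, SmC (Y a))
  (sW : ∀ a, SmC (W a)) (s0 : SmC W0)

include sk sY sW s0

/-- The first equation. -/
theorem eqL1 (sy : ∀ i j, k2 i j = k2 j i) {s : MF n} (tf : ∀ x, ipC s k2 x = 0)
    (β : Fin n → MC n N) {z : VV n} (hY : ∀ a, Lc s β (Y a) z.1 = 0) :
    Lk s β (Kf k2 Y W W0) z =
      ∑ i, ∑ j, ((s z.1 i j - s z.2 i j : ℝ) : ℂ) • k2 i j z.2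
        + ∑ j, ∑ b, ((z.1 b - z.2 b : ℝ) : ℂ) • (β j z.1 * k2 j b z.2) := by
  have h1 := tf z.2
  unfold ipC at h1
  have h2 : ∑ a, Lc s β (Y a) z.1 * W a z.2 = 0 := by
    simp only [hY, Matrix.zero_mul, Finset.sum_const_zero]
  have h3 : ∑ a, Lc s β (Y a) z.1 * W a z.2 =
      ∑ i, ∑ j, (s z.1 i j : ℂ) • ∑ a, pdm i (pdm j (Y a)) z.1 * W a z.2 +
        ∑ i, β i z.1 * ∑ a, pdm i (Y a) z.1 * W a z.2 := by
    unfold Lc
    simp only [Matrix.add_mul, Finset.sum_add_distrib, Finset.sum_mul, Matrix.smul_mul,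
      Finset.smul_sum, Finset.mul_sum, Matrix.mul_assoc]
    congr 1
    · rw [Finset.sum_comm]
      exact Finset.sum_congr rfl fun i _ => Finset.sum_comm
    · exact Finset.sum_comm
  rw [h2] at h3
  unfold Lk
  simp only [dxx sk sY sW s0 sy]
  simp only [dx1 sk sY sW s0 sy, smul_add, Matrix.mul_add, Finset.sum_add_distrib]
  have h4 : ∑ i, β i z.1 * ∑ b, qq b z • k2 i b z.2 =
      ∑ j, ∑ b, ((z.1 b - z.2 b : ℝ) : ℂ) • (β j z.1 * k2 j b z.2) := by
    refine Finset.sum_congr rfl fun i _ => ?_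
    rw [Finset.mul_sum]
    exact Finset.sum_congr rfl fun b _ => by rw [Matrix.mul_smul]; rfl
  have h5 : ∑ i, ∑ j, ((s z.1 i j - s z.2 i j : ℝ) : ℂ) • k2 i j z.2 =
      ∑ i, ∑ j, (s z.1 i j : ℂ) • k2 j i z.2 := by
    have : ∑ i, ∑ j, ((s z.1 i j - s z.2 i j : ℝ) : ℂ) • k2 i j z.2 =
      ∑ i, ∑ j, (s z.1 i j : ℂ) • k2 i j z.2 - ∑ i, ∑ j, (s z.2 i j : ℂ) • k2 i j z.2 := by
      simp only [← Finset.sum_sub_distrib, Complex.ofReal_sub, sub_smul]
    rw [this, h1, sub_zero]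
    exact Finset.sum_congr rfl fun i _ => Finset.sum_congr rfl fun j _ => by rw [sy i j]
  rw [h4, h5]
  rw [add_add_add_comm, ← h3, add_zero]

/-- The second equation. -/
theorem eqL2 (sy : ∀ i j, k2 i j = k2 j i) {s : MF n} (hsy : ∀ x, (s x).IsSymm)
    (β : Fin n → MC n N) {z : VV n} {Γ : Fin n → Fin n → MC n N} {R : Fin n → MC n N}
    (hΓ : ∀ l b, ∑ a, pdm l (Y a) z.2 * Γ a b z.2 = if l = b then 1 else 0)
    (hR : ∀ b, R b z.2 = (2 : ℂ) • (∑ i, ∑ j, (s z.2 i j : ℂ) • pdm i (k2 j b) z.2)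
      + ∑ j, k2 j b z.2 * β j z.2)
    (hW : ∀ a, Rv s β (W a) z.2 = ∑ b, Γ a b z.2 * R b z.2)
    (hW0 : Rv s β W0 z.2 = -(∑ i, ∑ j, (s z.2 i j : ℂ) • k2 i j z.2 +
      ∑ a, Y a z.2 * ∑ b, Γ a b z.2 * R b z.2)) :
    Rk s β (Kf k2 Y W W0) z =
      (1 / 2 : ℂ) • (∑ a, ∑ b, (((z.1 a - z.2 a) * (z.1 b - z.2 b) : ℝ) : ℂ) •
        Rv s β (k2 a b) z.2)
      + ∑ a, ∑ b, (Y a z.1 - Y a z.2 - ∑ l, ((z.1 l - z.2 l : ℝ) : ℂ) • pdm l (Y a) z.2) *
        (Γ a b z.2 * R b z.2) := by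
  -- the sum with `Γ`
  have h1 : ∑ a, ∑ b, (∑ l, ((z.1 l - z.2 l : ℝ) : ℂ) • pdm l (Y a) z.2) *
      (Γ a b z.2 * R b z.2) = ∑ l, qq l z • R l z.2 := by
    have e1 : ∀ a b, (∑ l, ((z.1 l - z.2 l : ℝ) : ℂ) • pdm l (Y a) z.2) *
      (Γ a b z.2 * R b z.2) = ∑ l, qq l z • (pdm l (Y a) z.2 * Γ a b z.2 * R b z.2) := by
      intro a b
      rw [Finset.sum_mul]
      exact Finset.sum_congr rfl fun l _ => by rw [Matrix.smul_mul, Matrix.mul_assoc]; rfl
    simp only [e1]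
    have e2 : ∑ a, ∑ b, ∑ l, qq l z • (pdm l (Y a) z.2 * Γ a b z.2 * R b z.2) =
        ∑ l, ∑ b, ∑ a, qq l z • (pdm l (Y a) z.2 * Γ a b z.2 * R b z.2) := by
      rw [Finset.sum_comm]
      rw [Finset.sum_congr rfl fun b _ => Finset.sum_comm]
      exact Finset.sum_comm
    rw [e2]
    refine Finset.sum_congr rfl fun l _ => ?_
    have e3 : ∀ b, ∑ a, qq l z • (pdm l (Y a) z.2 * Γ a b z.2 * R b z.2) =
        qq l z • ((if l = b then 1 else 0) * R b z.2) := by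
      intro b
      rw [← Finset.smul_sum, ← Finset.sum_mul, hΓ]
    simp only [e3, ite_mul, Matrix.one_mul, Matrix.zero_mul, smul_ite, smul_zero,
      Finset.sum_ite_eq, Finset.mem_univ, if_true]
  have h2 : ∑ a, ∑ b, (Y a z.1 - Y a z.2 - ∑ l, ((z.1 l - z.2 l : ℝ) : ℂ) • pdm l (Y a) z.2) *
        (Γ a b z.2 * R b z.2) = ∑ a, Y a z.1 * Rv s β (W a) z.2 -
      ∑ a, Y a z.2 * (∑ b, Γ a b z.2 * R b z.2) - ∑ l, qq l z • R l z.2 := by
    rw [← h1]
    simp only [sub_mul, Finset.sum_sub_distrib, hW, Finset.mul_sum]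
  rw [h2]
  -- the sum with `q_b`
  have h3 : ∑ l, qq l z • R l z.2 = (∑ i, ∑ j, (s z.2 i j : ℂ) • ∑ b, qq b z • pdm j (k2 i b) z.2
      + ∑ i, ∑ j, (s z.2 i j : ℂ) • ∑ b, qq b z • pdm i (k2 j b) z.2)
      + ∑ i, (∑ b, qq b z • k2 i b z.2) * β i z.2 := by
    have e1 : ∑ i, ∑ j, (s z.2 i j : ℂ) • ∑ b, qq b z • pdm j (k2 i b) z.2 =
        ∑ i, ∑ j, (s z.2 i j : ℂ) • ∑ b, qq b z • pdm i (k2 j b) z.2 := by
      rw [Finset.sum_comm]
      refine Finset.sum_congr rfl fun i _ => Finset.sum_congr rfl fun j _ => ?_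
      rw [(hsy z.2).apply i j]
    have e2 : ∑ i, ∑ j, (s z.2 i j : ℂ) • ∑ b, qq b z • pdm i (k2 j b) z.2 =
        ∑ b, qq b z • ∑ i, ∑ j, (s z.2 i j : ℂ) • pdm i (k2 j b) z.2 := by
      simp only [Finset.smul_sum]
      rw [Finset.sum_congr rfl fun i _ => Finset.sum_comm, Finset.sum_comm]
      refine Finset.sum_congr rfl fun b _ => Finset.sum_congr rfl fun i _ =>
        Finset.sum_congr rfl fun j _ => ?_
      rw [smul_comm]
    have e3 : ∑ i, (∑ b, qq b z • k2 i b z.2) * β i z.2 =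
        ∑ b, qq b z • ∑ j, k2 j b z.2 * β j z.2 := by
      simp only [Finset.smul_sum, Finset.sum_mul, Matrix.smul_mul]
      exact Finset.sum_comm
    rw [e1, e2, e3]
    simp only [hR, smul_add, Finset.sum_add_distrib]
    congr 1
    rw [← two_smul ℂ, Finset.smul_sum]
    exact Finset.sum_congr rfl fun b _ => smul_comm _ _ _
  rw [h3]
  -- the left hand side
  have h4 : (1 / 2 : ℂ) • (∑ a, ∑ b, (((z.1 a - z.2 a) * (z.1 b - z.2 b) : ℝ) : ℂ) •
        Rv s β (k2 a b) z.2) =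
      ∑ i, ∑ j, (s z.2 i j : ℂ) • (1 / 2 : ℂ) • ∑ a, ∑ b, (qq a z * qq b z) •
        pdm i (pdm j (k2 a b)) z.2 +
      ∑ i, ((1 / 2 : ℂ) • ∑ a, ∑ b, (qq a z * qq b z) • pdm i (k2 a b) z.2) * β i z.2 := by
    unfold Rv
    have e0 : ∀ a b, (((z.1 a - z.2 a) * (z.1 b - z.2 b) : ℝ) : ℂ) = qq a z * qq b z := by
      intro a b
      unfold qq
      push_cast
      ring
    simp only [e0, smul_add, Finset.sum_add_distrib, Matrix.smul_mul, Finset.sum_mul]
    congr 1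
    · simp only [Finset.smul_sum]
      have c1 : ∀ F : Fin n → Fin n → Fin n → Fin n → Matrix (Fin N) (Fin N) ℂ,
          ∑ a, ∑ b, ∑ i, ∑ j, F a b i j = ∑ i, ∑ j, ∑ a, ∑ b, F a b i j := by
        intro F
        calc ∑ a, ∑ b, ∑ i, ∑ j, F a b i j = ∑ a, ∑ i, ∑ b, ∑ j, F a b i j :=
              Finset.sum_congr rfl fun a _ => Finset.sum_comm
          _ = ∑ i, ∑ a, ∑ b, ∑ j, F a b i j := Finset.sum_comm
          _ = ∑ i, ∑ a, ∑ j, ∑ b, F a b i j := Finset.sum_congr rfl fun i _ =>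
              Finset.sum_congr rfl fun a _ => Finset.sum_comm
          _ = ∑ i, ∑ j, ∑ a, ∑ b, F a b i j := Finset.sum_congr rfl fun i _ => Finset.sum_comm
      rw [c1]
      refine Finset.sum_congr rfl fun i _ => Finset.sum_congr rfl fun j _ =>
        Finset.sum_congr rfl fun a _ => Finset.sum_congr rfl fun b _ => ?_
      simp only [smul_smul]
      congr 1
      ring
    · simp only [Finset.smul_sum]
      have c1 : ∀ F : Fin n → Fin n → Fin n → Matrix (Fin N) (Fin N) ℂ,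
          ∑ a, ∑ b, ∑ i, F a b i = ∑ i, ∑ a, ∑ b, F a b i := by
        intro F
        calc ∑ a, ∑ b, ∑ i, F a b i = ∑ a, ∑ i, ∑ b, F a b i :=
              Finset.sum_congr rfl fun a _ => Finset.sum_comm
          _ = _ := Finset.sum_comm
      rw [c1]
  rw [h4]
  unfold Rk
  simp only [dyy sk sY sW s0 sy]
  simp only [dy1 sk sY sW s0 sy]
  simp only [smul_add, smul_sub, Matrix.add_mul, Matrix.sub_mul, Finset.sum_add_distrib,
    Finset.sum_sub_distrib]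
  have h5 : ∑ i, ∑ j, (s z.2 i j : ℂ) • ∑ a, Y a z.1 * pdm i (pdm j (W a)) z.2 +
      ∑ i, (∑ a, Y a z.1 * pdm i (W a) z.2) * β i z.2 = ∑ a, Y a z.1 * Rv s β (W a) z.2 := by
    unfold Rv
    simp only [Matrix.mul_add, Finset.sum_add_distrib, Finset.smul_sum, Finset.mul_sum,
      Finset.sum_mul, Matrix.mul_smul, Matrix.mul_assoc]
    congr 1
    · symm
      rw [Finset.sum_comm]
      exact Finset.sum_congr rfl fun i _ => Finset.sum_comm
    · exact Finset.sum_comm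
  have h6 : ∑ i, ∑ j, (s z.2 i j : ℂ) • pdm i (pdm j W0) z.2 + ∑ i, pdm i W0 z.2 * β i z.2 =
      -(∑ i, ∑ j, (s z.2 i j : ℂ) • k2 i j z.2 +
      ∑ a, Y a z.2 * ∑ b, Γ a b z.2 * R b z.2) := hW0
  have h7 : ∑ i, ∑ j, (s z.2 i j : ℂ) • k2 j i z.2 = ∑ i, ∑ j, (s z.2 i j : ℂ) • k2 i j z.2 :=
    Finset.sum_congr rfl fun i _ => Finset.sum_congr rfl fun j _ => by rw [sy i j]
  rw [h7, ← h5]
  rw [← sub_eq_zero] at h6
  rw [← sub_eq_zero]
  refine Eq.trans ?_ h6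
  abel

end eqs

end Vale.Agent.P088.PJ.H605
end
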